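import Vale.Agent.P210.TP.Props
import Mathlib.Topology.PartitionOfUnity

/-!
# Barycentric coordinates subordinate to an open cover of bounded order
-/

open scoped Topology
open Set

noncomputable section

namespace Vale.Agent.P210.R2.H664

/-- D4: from covers to barycentric coordinates. -/
theorem bary_of_cover {X : Type} [TopologicalSpace X] [T2Space X] [ParacompactSpace X] {k : ℕ}
    {A : Type} {W : A → Set X} (hW : ∀ a, IsOpen (W a)) (hWc : (⋃ a, W a) = univ)
    (hord : ∀ x, {a | x ∈ W a}.Finite ∧ {a | x ∈ W a}.ncard ≤ k + 1) :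
    ∃ lam : A → X → ℝ, TP.Bary X A k lam ∧ ∀ a, Function.support (lam a) ⊆ W a := by
  obtain ⟨ρ, hρ⟩ := PartitionOfUnity.exists_isSubordinate (s := (univ : Set X)) isClosed_univ W hW
    (by rw [hWc])
  have hsub : ∀ a, Function.support (fun x => ρ a x) ⊆ W a := fun a =>
    (subset_tsupport _).trans (hρ a)
  refine ⟨fun a x => ρ a x, ⟨fun a => (ρ a).continuous, fun a x => ρ.nonneg a x, ρ.locallyFinite,
    fun x => ρ.sum_eq_one (mem_univ x), fun x => ?_⟩, hsub⟩
  refine (Set.ncard_le_ncard ?_ (hord x).1).trans (hord x).2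
  intro a ha
  exact hsub a ha

end Vale.Agent.P210.R2.H664
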